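import Vale.Agent.P132.Bridge

namespace Vale.Agent.Results.P132.A_full

open Vale.Agent.P132.St

universe u

theorem result (H : Type u) [NormedAddCommGroup H] [InnerProductSpace ℂ H] [CompleteSpace H]
    (M : VonNeumannAlgebra H) (hM : IsFactor M) (hF : FullSpectrum M)
    (φ : (H →L[ℂ] H) → ℂ) (hφ : IsFNState M φ) :
    bicentralizer M φ = {a | ∃ c : ℂ, a = c • (1 : H →L[ℂ] H)} := by
  refine Set.Subset.antisymm (fun a ha => Vale.Agent.P132.bridge_main hM hF hφ ha) ?_
  rintro _ ⟨c, rfl⟩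
  exact ⟨SMulMemClass.smul_mem c (one_mem M), fun w _ η => by simp⟩

end Vale.Agent.Results.P132.A_full
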